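/-
helper21 -- S0355 squad (track D), leaf D1: the prism over a coordinate facet.

`sweep (facet (inl j)) u = {x | x j ∈ [u j, 0] ∧ x - (x j / u j) • u ∈ KP}` (for `u j < 0`).
Split off the coordinate `j` (`MeasurableEquiv.piFinSuccAbove`), shear the remaining 19 coordinates
(`MeasurePreserving.skew_product`): the prism becomes the product of `[u j, 0]` with a two-block
set of `Fin 19 → ℝ`, whose volume is the hypothesis `hTB`.
-/
import Crest.Agent.Helper28.S0355.Defs

set_option autoImplicit false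
open MeasureTheory
open scoped ENNReal

namespace Crest.Agent.Helper21.S0355

open Crest.Agent.Helper28.S0355

/-- The indices of the first block that survive the deletion of the coordinate `j`. -/
def blockA (j : Fin 20) : Finset (Fin 19) := Finset.univ.filter (fun i => j.succAbove i ∈ B1)

/-- The two-block set of `Fin 19 → ℝ`. -/
def TB (A : Finset (Fin 19)) : Set (Fin 19 → ℝ) :=
  {y | (∀ i, 0 ≤ y i) ∧ ∑ i ∈ A, y i ≤ 1 ∧ ∑ i ∈ Aᶜ, y i ≤ 1}

theorem isClosed_TB (A : Finset (Fin 19)) : IsClosed (TB A) := by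
  have h1 : IsClosed {y : Fin 19 → ℝ | ∀ i, 0 ≤ y i} := by
    simp only [Set.ofPred_forall]
    exact isClosed_iInter fun i => isClosed_le continuous_const (continuous_apply i)
  have h2 : IsClosed {y : Fin 19 → ℝ | ∑ i ∈ A, y i ≤ 1} :=
    isClosed_le (continuous_finsetSum _ fun i _ => continuous_apply i) continuous_const
  have h3 : IsClosed {y : Fin 19 → ℝ | ∑ i ∈ Aᶜ, y i ≤ 1} :=
    isClosed_le (continuous_finsetSum _ fun i _ => continuous_apply i) continuous_const
  exact h1.inter (h2.inter h3)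

theorem sum_succAbove (j : Fin 20) (B : Finset (Fin 20)) (z : P20) (hz : z j = 0) :
    ∑ i ∈ B, z i =
      ∑ i ∈ Finset.univ.filter (fun i : Fin 19 => j.succAbove i ∈ B), z (j.succAbove i) := by
  classical
  have h1 : ∑ i ∈ B, z i = ∑ i : Fin 20, if i ∈ B then z i else 0 := by
    rw [Finset.sum_ite_mem, Finset.univ_inter]
  rw [h1, Fin.sum_univ_succAbove _ j, Finset.sum_filter]
  simp [hz]

theorem mem_KP_iff_TB (j : Fin 20) (z : P20) (hz : z j = 0) :
    z ∈ KP ↔ (fun i => z (j.succAbove i)) ∈ TB (blockA j) := by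
  have hc : (blockA j)ᶜ = Finset.univ.filter (fun i : Fin 19 => j.succAbove i ∈ B2) := by
    ext i; simp [blockA, B2]
  have e1 : s1 z = ∑ i ∈ blockA j, z (j.succAbove i) := sum_succAbove j B1 z hz
  have e2 : s2 z = ∑ i ∈ (blockA j)ᶜ, z (j.succAbove i) := by
    rw [hc]; exact sum_succAbove j B2 z hz
  constructor
  · rintro ⟨h0, h1, h2⟩
    exact ⟨fun i => h0 _, e1 ▸ h1, e2 ▸ h2⟩
  · rintro ⟨h0, h1, h2⟩
    refine ⟨?_, e1 ▸ h1, e2 ▸ h2⟩
    rw [Fin.forall_iff_succAbove j]
    exact ⟨hz.ge, h0⟩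

theorem mem_sweep_facet_iff (u : P20) (j : Fin 20) (hj : u j < 0) (x : P20) :
    x ∈ sweep (facet (Sum.inl j)) u ↔
      x j ∈ Set.Icc (u j) 0 ∧
        (fun i => x (j.succAbove i) - (x j / u j) * u (j.succAbove i)) ∈ TB (blockA j) := by
  have hne : u j ≠ 0 := hj.ne
  constructor
  · rintro ⟨t, ⟨ht0, ht1⟩, hK, hl⟩
    have hxj : x j = t * u j := by
      simp only [lc, bc, Pi.sub_apply, Pi.smul_apply, smul_eq_mul] at hl
      linarith
    have ht : x j / u j = t := by rw [hxj]; field_simp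
    have hz : (x - t • u) j = 0 := by simp [hxj]
    refine ⟨⟨?_, ?_⟩, ?_⟩
    · rw [hxj]; nlinarith
    · rw [hxj]; nlinarith
    · have := (mem_KP_iff_TB j (x - t • u) hz).1 hK
      rw [ht]
      simpa using this
  · rintro ⟨⟨h1, h2⟩, hT⟩
    have hz : (x - (x j / u j) • u) j = 0 := by
      simp only [Pi.sub_apply, Pi.smul_apply, smul_eq_mul]
      field_simp
      ring
    refine ⟨x j / u j, ⟨div_nonneg_of_nonpos h2 hj.le, ?_⟩, ?_, ?_⟩
    · rw [div_le_one_of_neg hj]; exact h1
    · exact (mem_KP_iff_TB j _ hz).2 (by simpa using hT)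
    · simp only [lc, bc]
      rw [hz]; simp

theorem card_blockA (j : Fin 20) :
    ((blockA j).card.factorial : ℝ) * ((blockA j)ᶜ.card.factorial : ℝ) =
      (Nat.factorial 9 : ℝ) * (Nat.factorial 10 : ℝ) := by
  have h : ∀ j : Fin 20, ((blockA j).card = 9 ∧ (blockA j)ᶜ.card = 10) ∨
      ((blockA j).card = 10 ∧ (blockA j)ᶜ.card = 9) := by decide
  rcases h j with ⟨h1, h2⟩ | ⟨h1, h2⟩ <;> rw [h1, h2]
  ring

theorem volume_sweep_facet_inl
    (hTB : ∀ A : Finset (Fin 19),
      volume {y : Fin 19 → ℝ | (∀ i, 0 ≤ y i) ∧ ∑ i ∈ A, y i ≤ 1 ∧ ∑ i ∈ Aᶜ, y i ≤ 1} =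
        ENNReal.ofReal (1 / ((A.card.factorial : ℝ) * (Aᶜ.card.factorial : ℝ))))
    (u : P20) (j : Fin 20) (hj : u j < 0) :
    volume (sweep (facet (Sum.inl j)) u) =
      ENNReal.ofReal (- u j / ((Nat.factorial 9 : ℝ) * (Nat.factorial 10 : ℝ))) := by
  -- the shear of the last 19 coordinates
  have hsh : MeasurePreserving
      (fun p : ℝ × (Fin 19 → ℝ) => (p.1, p.2 - (p.1 / u j) • (fun i => u (j.succAbove i))))
      ((volume : Measure ℝ).prod (volume : Measure (Fin 19 → ℝ)))
      ((volume : Measure ℝ).prod (volume : Measure (Fin 19 → ℝ))) := by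
    refine MeasurePreserving.skew_product
      (g := fun (ξ : ℝ) (y : Fin 19 → ℝ) => y - (ξ / u j) • (fun i => u (j.succAbove i)))
      (MeasurePreserving.id volume) ?_ ?_
    · exact measurable_snd.sub ((measurable_fst.div_const _).smul_const _)
    · exact Filter.Eventually.of_forall fun ξ => (measurePreserving_sub_right volume _).map_eq
  have he : MeasurePreserving (MeasurableEquiv.piFinSuccAbove (fun _ : Fin 20 => ℝ) j)
      (volume : Measure P20) ((volume : Measure ℝ).prod (volume : Measure (Fin 19 → ℝ))) :=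
    volume_preserving_piFinSuccAbove (fun _ : Fin 20 => ℝ) j
  have hF := hsh.comp he
  have hset : sweep (facet (Sum.inl j)) u =
      ((fun p : ℝ × (Fin 19 → ℝ) => (p.1, p.2 - (p.1 / u j) • (fun i => u (j.succAbove i)))) ∘
        (MeasurableEquiv.piFinSuccAbove (fun _ : Fin 20 => ℝ) j)) ⁻¹'
        (Set.Icc (u j) 0 ×ˢ TB (blockA j)) := by
    ext x
    rw [mem_sweep_facet_iff u j hj x]
    simp only [Set.mem_preimage, Function.comp_apply, Set.mem_prod]
    rfl
  have hmeas : MeasurableSet (Set.Icc (u j) 0 ×ˢ TB (blockA j)) :=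
    measurableSet_Icc.prod (isClosed_TB _).measurableSet
  rw [hset, hF.measure_preimage hmeas.nullMeasurableSet, Measure.prod_prod, Real.volume_Icc]
  have hT : volume (TB (blockA j)) =
      ENNReal.ofReal (1 / ((Nat.factorial 9 : ℝ) * (Nat.factorial 10 : ℝ))) := by
    have := hTB (blockA j)
    rw [card_blockA j] at this
    exact this
  rw [hT, ← ENNReal.ofReal_mul (by linarith)]
  congr 1
  ring

end Crest.Agent.Helper21.S0355
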